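import Vale.Agent.P254.S.H129.Multi
import Vale.Agent.P254.S.H332.Ent

set_option linter.all false

/-!
# P254, block S: Gaussian Poincare inequalities on `E n`, first and second order (S-HERM)
-/

open MeasureTheory ProbabilityTheory Filter Topology Set

namespace Vale.Agent.P254.S129

open Vale.Agent.P157.Lv Vale.Agent.P227.M Vale.Agent.P254.S

variable {n : ℕ}

theorem pi_withDensity_real {ι : Type*} [Fintype ι] {X : ι → Type*} [∀ i, MeasurableSpace (X i)]
    (μ : ∀ i, Measure (X i)) [∀ i, SigmaFinite (μ i)] (f : ∀ i, X i → ℝ)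
    (h0 : ∀ i x, 0 ≤ f i x) (hi : ∀ i, Integrable (f i) (μ i)) :
    (Measure.pi fun i => (μ i).withDensity fun x => ENNReal.ofReal (f i x))
      = (Measure.pi μ).withDensity fun y => ENNReal.ofReal (∏ i, f i (y i)) := by
  have hsf : ∀ i, IsFiniteMeasure ((μ i).withDensity fun x => ENNReal.ofReal (f i x)) := fun i =>
    isFiniteMeasure_withDensity_ofReal (hi i).2
  refine Measure.pi_eq fun s hs => ?_
  rw [withDensity_apply _ (MeasurableSet.univ_pi hs), Measure.restrict_pi_pi,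
    ← ofReal_integral_eq_lintegral_ofReal, integral_fintype_prod_eq_prod,
    ENNReal.ofReal_prod_of_nonneg]
  · refine Finset.prod_congr rfl fun i _ => ?_
    rw [withDensity_apply _ (hs i), ← ofReal_integral_eq_lintegral_ofReal]
    · exact (hi i).restrict
    · exact ae_of_all _ (h0 i)
  · exact fun i _ => integral_nonneg (h0 i)
  · exact Integrable.fintype_prod_dep fun i => (hi i).restrict
  · exact ae_of_all _ fun y => Finset.prod_nonneg fun i _ => h0 i _

lemma gI_eq (n : ℕ) : gI (Fin n) = (volume : Measure (Fin n → ℝ)).withDensity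
    fun y => ENNReal.ofReal (∏ i, gaussianPDFReal 0 1 (y i)) := by
  have h := pi_withDensity_real (fun _ : Fin n => (volume : Measure ℝ))
    (fun _ x => gaussianPDFReal 0 1 x) (fun _ x => gaussianPDFReal_nonneg 0 1 x)
    (fun _ => integrable_gaussianPDFReal 0 1)
  have h2 : (gaussianReal 0 1 : Measure ℝ) =
      (volume : Measure ℝ).withDensity fun x => ENNReal.ofReal (gaussianPDFReal 0 1 x) := by
    rw [gaussianReal_of_var_ne_zero 0 one_ne_zero]
    rfl
  rw [← h2] at h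
  rw [volume_pi]
  exact h

lemma prod_pdf (y : Fin n → ℝ) : ∏ i, gaussianPDFReal 0 1 (y i) =
    (√(2 * Real.pi) ^ n)⁻¹ * Real.exp (-Q (WithLp.toLp 2 y : E n)) := by
  have h1 : Q (WithLp.toLp 2 y : E n) = ∑ i, y i ^ 2 / 2 := by
    rw [Q, Vale.Agent.P227.M.norm_sq_eq_sum, Finset.sum_div]
  simp only [pdf_eq]
  rw [Finset.prod_mul_distrib, h1, ← Finset.sum_neg_distrib, Real.exp_sum]
  simp only [Finset.prod_const, Finset.card_univ, Fintype.card_fin, inv_pow, neg_div]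

/-- expectation under `e^{-Q}` = integral against the product Gaussian measure -/
lemma Ex_eq (f : E n → ℝ) : Ex Q f = ∫ y, f (WithLp.toLp 2 y) ∂(gI (Fin n)) := by
  have hm : Measurable fun y : Fin n → ℝ => ∏ i, gaussianPDFReal 0 1 (y i) :=
    Finset.measurable_prod _ fun i _ => (measurable_gaussianPDFReal 0 1).comp (measurable_pi_apply i)
  have h0 : ∀ y : Fin n → ℝ, 0 ≤ ∏ i, gaussianPDFReal 0 1 (y i) := fun y =>
    Finset.prod_nonneg fun i _ => gaussianPDFReal_nonneg 0 1 _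
  rw [gI_eq, integral_withDensity_eq_integral_toReal_smul hm.ennreal_ofReal
    (Eventually.of_forall fun y => ENNReal.ofReal_lt_top)]
  have h0' : ∀ y : Fin n → ℝ,
      0 ≤ (√(2 * Real.pi) ^ n)⁻¹ * Real.exp (-Q (WithLp.toLp 2 y : E n)) := fun y => by positivity
  simp only [prod_pdf, ENNReal.toReal_ofReal (h0' _), smul_eq_mul]
  have h1 : ∫ y : Fin n → ℝ, (√(2 * Real.pi) ^ n)⁻¹ * Real.exp (-Q (WithLp.toLp 2 y : E n)) *
      f (WithLp.toLp 2 y) = (√(2 * Real.pi) ^ n)⁻¹ * ∫ x : E n, f x * Real.exp (-Q x) := by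
    rw [← integral_const_mul]
    rw [← (PiLp.volume_preserving_ofLp (Fin n)).integral_comp
      (MeasurableEquiv.toLp 2 (Fin n → ℝ)).symm.measurableEmbedding
      (fun y : Fin n → ℝ => (√(2 * Real.pi) ^ n)⁻¹ * Real.exp (-Q (WithLp.toLp 2 y : E n)) *
        f (WithLp.toLp 2 y))]
    refine integral_congr_ae (Eventually.of_forall fun x => ?_)
    dsimp only
    ring
  rw [h1, Ex, S332.integral_expQ, div_eq_inv_mul]

lemma toLp_update (y : Fin n → ℝ) (e : Fin n) (t : ℝ) :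
    (WithLp.toLp 2 (Function.update y e t) : E n) = WithLp.toLp 2 y + (t - y e) • ei e := by
  ext j
  by_cases h : j = e
  · subst h
    simp [ei]
  · simp [ei, h]

lemma exists_toLp_le (n : ℕ) : ∃ L : ℝ, 0 ≤ L ∧ ∀ y : Fin n → ℝ,
    ‖(WithLp.toLp 2 y : E n)‖ ≤ L * ‖y‖ := by
  set T : (Fin n → ℝ) →L[ℝ] E n :=
    ((EuclideanSpace.equiv (Fin n) ℝ).symm : (Fin n → ℝ) ≃L[ℝ] E n).toContinuousLinearMap with hT
  refine ⟨‖T‖, norm_nonneg _, fun y => ?_⟩
  exact T.le_opNorm y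

lemma continuous_toLp' : Continuous fun y : Fin n → ℝ => (WithLp.toLp 2 y : E n) :=
  PiLp.continuous_toLp 2 _

lemma norm_ei (i : Fin n) : ‖(ei i : E n)‖ = 1 := by
  simp [ei]

/-- functions of linear growth -/
lemma EG_of_lin {f : E n → ℝ} (hf : Continuous f) {A B : ℝ} (hB : 0 ≤ B)
    (h : ∀ x, |f x| ≤ A + B * ‖x‖) : EG fun y : Fin n → ℝ => f (WithLp.toLp 2 y) := by
  obtain ⟨L, hL, hLy⟩ := exists_toLp_le n
  refine ⟨(hf.comp continuous_toLp').measurable, |A| + B * L, 1, by positivity, zero_le_one,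
    fun y => ?_⟩
  rw [one_mul]
  have h1 : (1:ℝ) ≤ Real.exp ‖y‖ := Real.one_le_exp (norm_nonneg y)
  have h2 : ‖y‖ ≤ Real.exp ‖y‖ := (Real.add_one_le_exp ‖y‖).trans' (by linarith)
  calc |f (WithLp.toLp 2 y)| ≤ A + B * ‖(WithLp.toLp 2 y : E n)‖ := h _
    _ ≤ |A| + B * (L * ‖y‖) := add_le_add (le_abs_self A) (mul_le_mul_of_nonneg_left (hLy y) hB)
    _ = |A| * 1 + (B * L) * ‖y‖ := by ring
    _ ≤ |A| * Real.exp ‖y‖ + (B * L) * Real.exp ‖y‖ := by gcongr
    _ = _ := by ring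

lemma PD_of_C1 {f : E n → ℝ} (hf : Differentiable ℝ f) (e : Fin n) :
    PD e (fun y : Fin n → ℝ => f (WithLp.toLp 2 y)) (fun y => pd e f (WithLp.toLp 2 y)) := by
  intro y x
  have h1 : HasDerivAt (fun t : ℝ => (WithLp.toLp 2 (Function.update y e t) : E n)) (ei e) x := by
    simp only [toLp_update]
    have h2 : HasDerivAt (fun t : ℝ => (t - y e) • (ei e : E n)) ((1:ℝ) • ei e) x :=
      ((hasDerivAt_id x).sub_const (y e)).smul_const (ei e)
    rw [one_smul] at h2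
    exact h2.const_add _
  exact (hf _).hasFDerivAt.comp_hasDerivAt x h1

lemma C1_growth {f : E n → ℝ} {B : ℝ} (hf : Differentiable ℝ f) (hB : ∀ x, ‖fderiv ℝ f x‖ ≤ B) :
    0 ≤ B ∧ (∀ x, |f x| ≤ |f 0| + B * ‖x‖) ∧ ∀ i x, |pd i f x| ≤ B := by
  have hB0 : 0 ≤ B := (norm_nonneg _).trans (hB 0)
  refine ⟨hB0, fun x => ?_, fun i x => ?_⟩
  · have h1 := convex_univ.norm_image_sub_le_of_norm_fderiv_le (f := f) (C := B) (x := 0) (y := x)
      (fun z _ => hf z) (fun z _ => hB z) (mem_univ _) (mem_univ _)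
    rw [sub_zero, Real.norm_eq_abs] at h1
    have h2 := abs_sub_abs_le_abs_sub (f x) (f 0)
    linarith
  · have h1 := (fderiv ℝ f x).le_opNorm (ei i)
    rw [norm_ei, mul_one, Real.norm_eq_abs] at h1
    exact h1.trans (hB x)

/-- **S-HERM** -/
theorem stmtHerm : StmtHerm := by
  intro n f B hf hB
  have hfd : Differentiable ℝ f := hf.differentiable one_ne_zero
  obtain ⟨hB0, hg, hp⟩ := C1_growth hfd hB
  set F : (Fin n → ℝ) → ℝ := fun y => f (WithLp.toLp 2 y) with hF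
  set F' : Fin n → (Fin n → ℝ) → ℝ := fun e y => pd e f (WithLp.toLp 2 y) with hF'
  have hFE : EG F := EG_of_lin hf.continuous hB0 hg
  have hpc : ∀ e, Continuous (pd e f) := fun e =>
    (contDiff_pd (k := 0) hf (by simp) e).continuous
  have hF'E : ∀ e, EG (F' e) := fun e =>
    EG_of_lin (hpc e) le_rfl (A := B) fun x => by simpa using hp e x
  have h := var_snd hFE (fun e => PD_of_C1 hfd e) hF'E
  rw [var_eq hFE] at h
  simp only [Ex_eq]
  have h2 : ∫ y, ∑ i, pd i f (WithLp.toLp 2 y) ^ 2 ∂(gI (Fin n)) =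
      ∑ e, ∫ z, F' e z ^ 2 ∂(gI (Fin n)) :=
    integral_finsetSum _ fun e _ => ((hF'E e).pow 2).integrable
  rw [h2]
  have h3 : ∫ y, f (WithLp.toLp 2 y) ^ 2 ∂(gI (Fin n)) = ∫ z, F z ^ 2 ∂(gI (Fin n)) := rfl
  have h4 : ∫ y, f (WithLp.toLp 2 y) ∂(gI (Fin n)) = ∫ z, F z ∂(gI (Fin n)) := rfl
  rw [h3, h4]
  linarith

/-- first order Poincare inequality for `C¹` functions with bounded gradient -/
theorem poi_C1 {f : E n → ℝ} {B : ℝ} (hf : ContDiff ℝ 1 f) (hB : ∀ x, ‖fderiv ℝ f x‖ ≤ B) :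
    Ex Q (fun z => f z ^ 2) - (Ex Q f) ^ 2 ≤ Ex Q (fun z => ∑ i, (pd i f z) ^ 2) := by
  have hfd : Differentiable ℝ f := hf.differentiable one_ne_zero
  obtain ⟨hB0, hg, hp⟩ := C1_growth hfd hB
  set F : (Fin n → ℝ) → ℝ := fun y => f (WithLp.toLp 2 y) with hF
  set F' : Fin n → (Fin n → ℝ) → ℝ := fun e y => pd e f (WithLp.toLp 2 y) with hF'
  have hFE : EG F := EG_of_lin hf.continuous hB0 hg
  have hpc : ∀ e, Continuous (pd e f) := fun e =>
    (contDiff_pd (k := 0) hf (by simp) e).continuous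
  have hF'E : ∀ e, EG (F' e) := fun e =>
    EG_of_lin (hpc e) le_rfl (A := B) fun x => by simpa using hp e x
  have h := cc_var_le_one hFE (fun e => PD_of_C1 hfd e) hF'E
  rw [var_eq hFE] at h
  simp only [Ex_eq]
  have h2 : ∫ y, ∑ i, pd i f (WithLp.toLp 2 y) ^ 2 ∂(gI (Fin n)) =
      ∑ e, ∫ z, F' e z ^ 2 ∂(gI (Fin n)) :=
    integral_finsetSum _ fun e _ => ((hF'E e).pow 2).integrable
  rw [h2]
  have h3 : ∫ y, f (WithLp.toLp 2 y) ^ 2 ∂(gI (Fin n)) = ∫ z, F z ^ 2 ∂(gI (Fin n)) := rfl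
  have h4 : ∫ y, f (WithLp.toLp 2 y) ∂(gI (Fin n)) = ∫ z, F z ∂(gI (Fin n)) := rfl
  rw [h3, h4]
  linarith

end Vale.Agent.P254.S129
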