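import Mathlib
import Vale.Agent.P146.Bdl.B2

set_option linter.all false

/-!
# P254, block S: second order Gaussian Poincare inequality in dimension one

`Var f ≤ (1/2) (E f')² + (1/2) E f'²`, by the Stein solution `u`, `u' = x u - (f - E f)`.
-/

open MeasureTheory ProbabilityTheory Filter Topology Set

namespace Vale.Agent.P254.S129

open Vale.Agent.P157.Lv


/-- Gaussian integration by parts in dimension one. -/
lemma stein_one {H H' : ℝ → ℝ} (hd : ∀ x, HasDerivAt H (H' x) x) (hH : CcE H) (hH' : CcE H') :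
    ∫ x, x * H x ∂(gaussianReal 0 1) = ∫ x, H' x ∂(gaussianReal 0 1) := by
  have hmp := measurePreserving_eval (fun _ : Unit => gaussianReal 0 1) ()
  have h := PD.stein (ι := Unit) (e := ()) (H := fun z => H (z ())) (H' := fun z => H' (z ()))
    (fun y x => by simpa using hd x) hH hH'
  have h1 := integral_map (μ := gI Unit) (φ := Function.eval ()) (measurable_pi_apply ()).aemeasurable
    (f := fun x : ℝ => x * H x) (measurable_id.mul hH.meas).aestronglyMeasurable
  have h2 := integral_map (μ := gI Unit) (φ := Function.eval ()) (measurable_pi_apply ()).aemeasurable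
    (f := fun x : ℝ => H' x) hH'.meas.aestronglyMeasurable
  rw [hmp.map_eq] at h1 h2
  rw [h1, h2]
  exact h

lemma pdf_pos (x : ℝ) : 0 < gaussianPDFReal 0 1 x := gaussianPDFReal_pos 0 1 x one_ne_zero

lemma pdf_eq (x : ℝ) : gaussianPDFReal 0 1 x = (√(2 * Real.pi))⁻¹ * Real.exp (-x ^ 2 / 2) := by
  rw [gaussianPDFReal_def]
  simp

lemma pdf_add_le {x v : ℝ} (hx : 0 ≤ x) (hv : 0 ≤ v) :
    gaussianPDFReal 0 1 (x + v) ≤ gaussianPDFReal 0 1 x * Real.exp (-v ^ 2 / 2) := by
  rw [pdf_eq, pdf_eq, mul_assoc, ← Real.exp_add]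
  have : 0 ≤ (√(2 * Real.pi))⁻¹ := by positivity
  gcongr
  nlinarith [mul_nonneg hx hv]

lemma exp_quad_int (a : ℝ) : Integrable fun v : ℝ => Real.exp (a * v) * Real.exp (-v ^ 2 / 2) := by
  have h := (integrable_exp_neg_mul_sq (b := (1/2 : ℝ)) (by norm_num)).comp_sub_right a
  refine (h.const_mul (Real.exp (a ^ 2 / 2))).congr (Eventually.of_forall fun v => ?_)
  dsimp only
  rw [← Real.exp_add, ← Real.exp_add]
  congr 1
  ring

lemma int_shift (F : ℝ → ℝ) (x : ℝ) : ∫ s in Ioi x, F s = ∫ v in Ioi (0 : ℝ), F (x + v) := by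
  rw [← integral_indicator measurableSet_Ioi, ← integral_indicator measurableSet_Ioi,
    ← integral_add_left_eq_self _ x]
  congr 1
  funext v
  by_cases h : 0 < v
  · rw [indicator_of_mem (show x + v ∈ Ioi x by simpa using h), indicator_of_mem (show v ∈ Ioi 0 from h)]
  · rw [indicator_of_notMem (show x + v ∉ Ioi x by simpa using h),
      indicator_of_notMem (show v ∉ Ioi 0 from h)]

/-- Tails of the Gaussian weight against functions of exponential growth. -/
lemma tail_bound {g : ℝ → ℝ} (hg : CcE g) : ∃ C a : ℝ, 0 ≤ C ∧ 0 ≤ a ∧ ∀ x, 0 ≤ x →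
    |∫ s in Ioi x, gaussianPDFReal 0 1 s * g s| ≤ C * Real.exp (a * x) * gaussianPDFReal 0 1 x := by
  obtain ⟨C, a, hC, ha, hb⟩ := hg.bdd
  set A : ℝ := ∫ v in Ioi (0 : ℝ), Real.exp (a * v) * Real.exp (-v ^ 2 / 2) with hA
  have hA0 : 0 ≤ A := integral_nonneg fun v => by positivity
  refine ⟨C * A, a, by positivity, ha, fun x hx => ?_⟩
  have h1 : ∫ s in Ioi x, gaussianPDFReal 0 1 s * g s =
      ∫ v in Ioi (0 : ℝ), gaussianPDFReal 0 1 (x + v) * g (x + v) :=
    int_shift (fun s => gaussianPDFReal 0 1 s * g s) x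
  rw [h1, ← Real.norm_eq_abs]
  refine (norm_integral_le_integral_norm _).trans ?_
  have h2 : ∀ v ∈ Ioi (0 : ℝ), ‖gaussianPDFReal 0 1 (x + v) * g (x + v)‖ ≤
      (C * Real.exp (a * x) * gaussianPDFReal 0 1 x) * (Real.exp (a * v) * Real.exp (-v ^ 2 / 2)) := by
    intro v hv
    have hv' : 0 ≤ v := le_of_lt hv
    rw [norm_mul, Real.norm_eq_abs, Real.norm_eq_abs, abs_of_pos (pdf_pos _)]
    have h3 : |g (x + v)| ≤ C * (Real.exp (a * x) * Real.exp (a * v)) := by
      refine (hb _).trans (le_of_eq ?_)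
      rw [← Real.exp_add, abs_of_nonneg (by positivity), mul_add]
    calc gaussianPDFReal 0 1 (x + v) * |g (x + v)|
        ≤ (gaussianPDFReal 0 1 x * Real.exp (-v ^ 2 / 2)) *
          (C * (Real.exp (a * x) * Real.exp (a * v))) := by
            have := pdf_add_le hx hv'
            have h0 := (pdf_pos x).le
            gcongr
      _ = _ := by ring
  have h4 : Integrable (fun v => (C * Real.exp (a * x) * gaussianPDFReal 0 1 x) *
      (Real.exp (a * v) * Real.exp (-v ^ 2 / 2))) (volume.restrict (Ioi (0:ℝ))) :=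
    ((exp_quad_int a).const_mul _).integrableOn
  have h5 : ∫ v in Ioi (0:ℝ), ‖gaussianPDFReal 0 1 (x + v) * g (x + v)‖ ≤
      ∫ v in Ioi (0:ℝ), (C * Real.exp (a * x) * gaussianPDFReal 0 1 x) *
      (Real.exp (a * v) * Real.exp (-v ^ 2 / 2)) := by
    refine setIntegral_mono_on ?_ h4 measurableSet_Ioi h2
    refine h4.mono' ?_ ((ae_restrict_iff' measurableSet_Ioi).2 (Eventually.of_forall fun v hv => ?_))
    · exact (((measurable_gaussianPDFReal 0 1).mul hg.meas).comp
        (measurable_const.add measurable_id)).norm.aestronglyMeasurable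
    · rw [norm_norm]
      exact h2 v hv
  refine h5.trans (le_of_eq ?_)
  rw [integral_const_mul, ← hA]
  ring

lemma pdf_mul_integrable {g : ℝ → ℝ} (hg : CcE g) :
    Integrable (fun x => gaussianPDFReal 0 1 x * g x) :=
  (integrable_gaussianReal_iff _).1 hg.integrable

lemma int_pdf_mul {g : ℝ → ℝ} :
    ∫ x, g x ∂(gaussianReal 0 1) = ∫ x, gaussianPDFReal 0 1 x * g x := by
  rw [integral_gaussianReal_eq_integral_smul one_ne_zero]
  simp only [smul_eq_mul]

/-- The Stein solution. -/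
lemma exists_stein {g : ℝ → ℝ} (hg : CcE g) (hc : Continuous g)
    (h0 : ∫ x, g x ∂(gaussianReal 0 1) = 0) :
    ∃ u : ℝ → ℝ, CcE u ∧ ∀ x, HasDerivAt u (x * u x - g x) x := by
  set w : ℝ → ℝ := fun x => gaussianPDFReal 0 1 x * g x with hw
  have hφc : Continuous (gaussianPDFReal 0 1) := by
    have : gaussianPDFReal 0 1 = fun x => (√(2 * Real.pi))⁻¹ * Real.exp (-x ^ 2 / 2) := funext pdf_eq
    rw [this]
    fun_prop
  have hwc : Continuous w := hφc.mul hc
  have hwi : Integrable w := pdf_mul_integrable hg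
  have hw0 : ∫ x, w x = 0 := by rw [← h0, int_pdf_mul]
  set G : ℝ → ℝ := fun x => (∫ s in Ioi (0:ℝ), w s) - ∫ s in (0:ℝ)..x, w s with hG
  have hGd : ∀ x, HasDerivAt G (-w x) x := by
    intro x
    have h1 := intervalIntegral.integral_hasDerivAt_right (hwc.intervalIntegrable 0 x)
      (hwc.stronglyMeasurableAtFilter _ _) hwc.continuousAt
    simpa using h1.const_sub (∫ s in Ioi (0:ℝ), w s)
  have hG1 : ∀ x, G x = ∫ s in Ioi x, w s := by
    intro x
    have := intervalIntegral.integral_interval_add_Ioi (a := (0:ℝ)) (b := x) (f := w)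
      hwi.integrableOn hwi.integrableOn
    rw [hG]
    dsimp only
    linarith
  have hG2 : ∀ x, G x = -∫ s in Ioi (-x), gaussianPDFReal 0 1 s * g (-s) := by
    intro x
    have h1 : ∫ s in Ioi (-x), gaussianPDFReal 0 1 s * g (-s) = ∫ s in Iic x, w s := by
      have := integral_comp_neg_Ioi (-x) w
      rw [neg_neg] at this
      rw [← this]
      refine setIntegral_congr_fun measurableSet_Ioi fun s _ => ?_
      simp only [hw, cc_gpdf_even]
    have h2 := integral_add_compl (measurableSet_Iic (a := x)) hwi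
    rw [compl_Iic, hw0] at h2
    rw [h1, hG1]
    linarith
  obtain ⟨C₁, a₁, hC₁, ha₁, hb₁⟩ := tail_bound hg
  obtain ⟨C₂, a₂, hC₂, ha₂, hb₂⟩ := tail_bound hg.neg_arg
  refine ⟨fun x => G x / gaussianPDFReal 0 1 x, ?_, fun x => ?_⟩
  · have hGc : Continuous G := continuous_iff_continuousAt.2 fun x => (hGd x).continuousAt
    refine CcE.of_bdd (hGc.div hφc fun x => (pdf_pos x).ne').measurable
      (C := C₁ + C₂) (a := a₁ + a₂) (by positivity) (by positivity) fun x => ?_
    rw [abs_div, abs_of_pos (pdf_pos x), div_le_iff₀ (pdf_pos x)]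
    rcases le_total 0 x with hx | hx
    · rw [abs_of_nonneg hx, hG1]
      refine (hb₁ x hx).trans ?_
      have h0 := (pdf_pos x).le
      have : a₁ * x ≤ (a₁ + a₂) * x := by nlinarith
      have h3 : C₁ ≤ C₁ + C₂ := by linarith
      gcongr
    · rw [abs_of_nonpos hx, hG2, abs_neg]
      refine (hb₂ (-x) (by linarith)).trans ?_
      rw [cc_gpdf_even]
      have h0 := (pdf_pos x).le
      have : a₂ * (-x) ≤ (a₁ + a₂) * (-x) := by nlinarith
      have h3 : C₂ ≤ C₁ + C₂ := by linarith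
      gcongr
  · have h1 := (hGd x).div (cc_gpdf_deriv x) (pdf_pos x).ne'
    refine HasDerivAt.congr_deriv h1 ?_
    have h2 := (pdf_pos x).ne'
    have h3 : w x = gaussianPDFReal 0 1 x * g x := rfl
    rw [h3]
    field_simp
    ring

/-- **Second order Poincare inequality in dimension one.** -/
theorem var_one_snd {f f' : ℝ → ℝ} (hd : ∀ x, HasDerivAt f (f' x) x) (hf : CcE f) (hf' : CcE f') :
    ∫ x, (f x - ∫ y, f y ∂(gaussianReal 0 1)) ^ 2 ∂(gaussianReal 0 1) ≤
      (1 / 2) * (∫ x, f' x ∂(gaussianReal 0 1)) ^ 2 +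
        (1 / 2) * ∫ x, f' x ^ 2 ∂(gaussianReal 0 1) := by
  set m := ∫ y, f y ∂(gaussianReal 0 1) with hm
  set g : ℝ → ℝ := fun x => f x - m with hg
  have hgE : CcE g := hf.sub (CcE.const m)
  have hgd : ∀ x, HasDerivAt g (f' x) x := fun x => (hd x).sub_const m
  have hgc : Continuous g := continuous_iff_continuousAt.2 fun x => (hgd x).continuousAt
  have hg0 : ∫ x, g x ∂(gaussianReal 0 1) = 0 := by
    rw [hg, CcE.int_sub hf (CcE.const m), ← hm, integral_const, probReal_univ, one_smul, sub_self]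
  obtain ⟨u, hu, hud⟩ := exists_stein hgE hgc hg0
  set u' : ℝ → ℝ := fun x => x * u x - g x with hu'
  have hu'E : CcE u' := (CcE.id.mul hu).sub hgE
  -- the four identities
  set a := ∫ x, f' x ∂(gaussianReal 0 1) with ha
  have e1 : ∫ x, x * g x ∂(gaussianReal 0 1) = a := stein_one hgd hgE hf'
  have e2 : ∫ x, u x ∂(gaussianReal 0 1) = a := by
    have h1 := stein_one (H := fun x => x * u x) (H' := fun x => u x + x * u' x)
      (fun x => by
        refine HasDerivAt.congr_deriv ((hasDerivAt_id x).mul (hud x)) ?_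
        simp only [hu', id]
        ring) (CcE.id.mul hu) (hu.add (CcE.id.mul hu'E))
    have h2 : ∫ x, (u x + x * u' x) ∂(gaussianReal 0 1) =
        ∫ x, u x ∂(gaussianReal 0 1) + (∫ x, x * (x * u x) ∂(gaussianReal 0 1) - a) := by
      rw [CcE.int_add hu (CcE.id.mul hu'E), ← e1,
        ← CcE.int_sub (CcE.id.mul (CcE.id.mul hu)) (CcE.id.mul hgE)]
      congr 2
      funext x
      simp only [hu']
      ring
    rw [h2] at h1
    linarith
  have e3 : ∫ x, g x ^ 2 ∂(gaussianReal 0 1) =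
      ∫ x, u x ^ 2 ∂(gaussianReal 0 1) + ∫ x, u' x ^ 2 ∂(gaussianReal 0 1) := by
    have h1 := stein_one (H := fun x => x * u x ^ 2) (H' := fun x => u x ^ 2 + 2 * (x * u x * u' x))
      (fun x => by
        refine HasDerivAt.congr_deriv ((hasDerivAt_id x).mul ((hud x).pow 2)) ?_
        simp only [hu', id, Pi.pow_apply]
        ring) (CcE.id.mul hu.sq) (hu.sq.add (((CcE.id.mul hu).mul hu'E).cm 2))
    have h2 : ∫ x, g x ^ 2 ∂(gaussianReal 0 1) = ∫ x, (x * (x * u x ^ 2) -
        2 * (x * u x * u' x) + u' x ^ 2) ∂(gaussianReal 0 1) := by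
      congr 1
      funext x
      simp only [hu']
      ring
    have i1 : CcE fun x => x * (x * u x ^ 2) := CcE.id.mul (CcE.id.mul hu.sq)
    have i2 : CcE fun x => 2 * (x * u x * u' x) := ((CcE.id.mul hu).mul hu'E).cm 2
    rw [h2, CcE.int_add (i1.sub i2) hu'E.sq, CcE.int_sub i1 i2, h1, CcE.int_add hu.sq i2]
    ring
  have e4 : ∫ x, g x ^ 2 ∂(gaussianReal 0 1) = ∫ x, f' x * u x ∂(gaussianReal 0 1) := by
    have h1 := stein_one (H := fun x => g x * u x) (H' := fun x => f' x * u x + g x * u' x)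
      (fun x => (hgd x).mul (hud x)) (hgE.mul hu) ((hf'.mul hu).add (hgE.mul hu'E))
    have h2 : ∫ x, g x ^ 2 ∂(gaussianReal 0 1) = ∫ x, (x * (g x * u x) - g x * u' x)
        ∂(gaussianReal 0 1) := by
      congr 1
      funext x
      simp only [hu']
      ring
    rw [h2, CcE.int_sub (CcE.id.mul (hgE.mul hu)) (hgE.mul hu'E), h1,
      CcE.int_add (hf'.mul hu) (hgE.mul hu'E)]
    ring
  have e5 : ∫ x, (u x - a) ^ 2 ∂(gaussianReal 0 1) ≤ ∫ x, u' x ^ 2 ∂(gaussianReal 0 1) := by
    have := cc_var_one hud hu hu'E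
    rw [e2] at this
    exact this
  have e6 : ∫ x, (u x - a) ^ 2 ∂(gaussianReal 0 1) = ∫ x, u x ^ 2 ∂(gaussianReal 0 1) - a ^ 2 := by
    have e : (fun x => (u x - a) ^ 2) = fun x => (u x ^ 2 - 2 * a * u x) + a ^ 2 := by
      funext x
      ring
    rw [e, CcE.int_add (hu.sq.sub (hu.cm (2 * a))) (CcE.const _),
      CcE.int_sub hu.sq (hu.cm (2 * a)), integral_const_mul, e2, integral_const,
      probReal_univ, one_smul]
    ring
  -- `E (f' - a)(u - a) ≤ (1/4) E (f' - a)² + E (u - a)²`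
  have e7 : ∫ x, (f' x - a) * (u x - a) ∂(gaussianReal 0 1) =
      ∫ x, f' x * u x ∂(gaussianReal 0 1) - a ^ 2 := by
    have e : (fun x => (f' x - a) * (u x - a)) =
        fun x => ((f' x * u x - a * f' x) - a * u x) + a ^ 2 := by
      funext x
      ring
    have i1 : CcE fun x => f' x * u x := hf'.mul hu
    have i2 : CcE fun x => a * f' x := hf'.cm a
    have i3 : CcE fun x => a * u x := hu.cm a
    rw [e, CcE.int_add ((i1.sub i2).sub i3) (CcE.const _), CcE.int_sub (i1.sub i2) i3,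
      CcE.int_sub i1 i2, integral_const_mul, integral_const_mul, e2, ← ha, integral_const,
      probReal_univ, one_smul]
    ring
  have e8 : ∫ x, (f' x - a) ^ 2 ∂(gaussianReal 0 1) = ∫ x, f' x ^ 2 ∂(gaussianReal 0 1) - a ^ 2 := by
    have e : (fun x => (f' x - a) ^ 2) = fun x => (f' x ^ 2 - 2 * a * f' x) + a ^ 2 := by
      funext x
      ring
    rw [e, CcE.int_add (hf'.sq.sub (hf'.cm (2 * a))) (CcE.const _),
      CcE.int_sub hf'.sq (hf'.cm (2 * a)), integral_const_mul, ← ha, integral_const,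
      probReal_univ, one_smul]
    ring
  have e9 : ∫ x, (f' x - a) * (u x - a) ∂(gaussianReal 0 1) ≤
      ∫ x, ((1 / 4) * (f' x - a) ^ 2 + (u x - a) ^ 2) ∂(gaussianReal 0 1) := by
    refine integral_mono ?_ ?_ fun x => ?_
    · exact ((hf'.sub (CcE.const a)).mul (hu.sub (CcE.const a))).integrable
    · exact (((hf'.sub (CcE.const a)).sq.cm (1/4)).add (hu.sub (CcE.const a)).sq).integrable
    · show (f' x - a) * (u x - a) ≤ (1 / 4) * (f' x - a) ^ 2 + (u x - a) ^ 2
      nlinarith [sq_nonneg ((1 / 2) * (f' x - a) - (u x - a))]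
  rw [CcE.int_add ((hf'.sub (CcE.const a)).sq.cm (1/4)) (hu.sub (CcE.const a)).sq,
    integral_const_mul] at e9
  have e10 : ∫ x, (f x - m) ^ 2 ∂(gaussianReal 0 1) = ∫ x, g x ^ 2 ∂(gaussianReal 0 1) := rfl
  rw [e10]
  nlinarith [e3, e4, e5, e6, e7, e8, e9]

end Vale.Agent.P254.S129
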