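import Mathlib
import Vale.Agent.P254.S.H129.One

set_option linter.all false

/-!
# P254, block S: second order Gaussian Poincare inequality on `ι → ℝ`

`Var f ≤ (1/2) |E ∇f|² + (1/2) E |∇f|²` for functions of at most exponential growth, by
tensorization.
-/

open MeasureTheory ProbabilityTheory Filter Topology Set

namespace Vale.Agent.P254.S129

open Vale.Agent.P157.Lv

variable {ι : Type} [Fintype ι] [DecidableEq ι]

/-- the level function which singles out the coordinate `e` -/
def lv (e : ι) : ι → ℕ := fun j => if j = e then 1 else 0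

lemma lv_self (e : ι) : lv e e = 1 := if_pos rfl
lemma lv_ne {e j : ι} (h : j ≠ e) : lv e j = 0 := if_neg h

lemma mix_lv (e : ι) (z w : ι → ℝ) : mix (lv e) 0 z w = Function.update z e (w e) := by
  funext j
  unfold mix
  by_cases h : j = e
  · subst h
    rw [if_neg (by rw [lv_self]; norm_num), Function.update_self]
  · rw [if_pos (by rw [lv_ne h]), Function.update_of_ne h]

/-- the average over the coordinate `e` -/
noncomputable def Av (e : ι) (F : (ι → ℝ) → ℝ) : (ι → ℝ) → ℝ := J (lv e) 0 F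

lemma Av_eq (e : ι) {F : (ι → ℝ) → ℝ} (hF : EG F) (z : ι → ℝ) :
    Av e F z = ∫ x, F (Function.update z e x) ∂(gaussianReal 0 1) := by
  unfold Av J
  simp only [mix_lv]
  have hmp := measurePreserving_eval (fun _ : ι => gaussianReal 0 1) e
  have h3 := integral_map (μ := gI ι) (φ := Function.eval e) (measurable_pi_apply e).aemeasurable
    (f := fun x => F (Function.update z e x)) (hF.cc_update z e).meas.aestronglyMeasurable
  rw [hmp.map_eq] at h3
  exact h3.symm

lemma Av_EG (e : ι) {F : (ι → ℝ) → ℝ} (hF : EG F) : EG (Av e F) := hF.J _ _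

lemma Av_upd (e : ι) (F : (ι → ℝ) → ℝ) (z : ι → ℝ) (t : ℝ) :
    Av e F (Function.update z e t) = Av e F z := by
  unfold Av J
  simp only [mix_lv, Function.update_idem]

lemma Av_pd {e j : ι} (h : j ≠ e) {F F' : (ι → ℝ) → ℝ} (hd : PD j F F') (hF : EG F) (hF' : EG F') :
    PD j (Av e F) (Av e F') := hd.J hF hF' (by rw [lv_ne h])

lemma Av_pd_self (e : ι) (F : (ι → ℝ) → ℝ) : PD e (Av e F) (fun _ => 0) :=
  PD.of_indep (Av_upd e F)

lemma int_Av (e : ι) {F : (ι → ℝ) → ℝ} (hF : EG F) : ∫ z, Av e F z ∂(gI ι) = ∫ z, F z ∂(gI ι) :=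
  integral_J hF

/-- integration by parts in the coordinate `e` -/
lemma Av_stein (e : ι) {F F' : (ι → ℝ) → ℝ} (hd : PD e F F') (hF : EG F) (hF' : EG F') (z : ι → ℝ) :
    Av e (fun z => z e * F z) z = Av e F' z := by
  rw [Av_eq e ((EG.coord e).mul hF), Av_eq e hF']
  simp only [Function.update_self]
  exact stein_one (fun x => hd z x) (hF.cc_update z e) (hF'.cc_update z e)

lemma Av_sq_coord (e : ι) (z : ι → ℝ) : Av e (fun z => z e ^ 2) z = 1 := by
  have h := Av_stein e (F := fun z : ι → ℝ => z e) (F' := fun _ => 1)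
    (by simpa using PD.coord (ι := ι) (e := e) e) (EG.coord e) (EG.const 1) z
  have h2 : Av e (fun _ : ι → ℝ => (1:ℝ)) z = 1 := J_const 1 z
  rw [h2] at h
  rw [← h]
  congr 1
  funext z
  ring

lemma Av_coord (e : ι) (z : ι → ℝ) : Av e (fun z => z e) z = 0 := by
  have h := Av_stein e (F := fun _ : ι → ℝ => (1:ℝ)) (F' := fun _ => 0)
    (PD.const 1) (EG.const 1) (EG.const 0) z
  have h2 : Av e (fun _ : ι → ℝ => (0:ℝ)) z = 0 := J_const 0 z
  rw [h2] at h
  rw [← h]
  congr 1
  funext z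
  ring

/-- `(E_e [z_e F])² ≤ E_e F² - (E_e F)²` -/
lemma Av_cs (e : ι) {F : (ι → ℝ) → ℝ} (hF : EG F) (z : ι → ℝ) :
    Av e (fun z => z e * F z) z ^ 2 ≤ Av e (fun z => F z ^ 2) z - Av e F z ^ 2 := by
  obtain ⟨c, hc⟩ : ∃ c, c = Av e (fun z => z e * F z) z := ⟨_, rfl⟩
  obtain ⟨b, hb⟩ : ∃ b, b = Av e F z := ⟨_, rfl⟩
  have hE : EG fun z => (F z - b - c * z e) ^ 2 :=
    ((hF.sub (EG.const b)).sub ((EG.coord e).const_mul c)).pow 2
  have h0 : 0 ≤ Av e (fun z => (F z - b - c * z e) ^ 2) z := integral_nonneg fun w => sq_nonneg _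
  have e1 : (fun z : ι → ℝ => (F z - b - c * z e) ^ 2) = fun z =>
      (((F z ^ 2 - 2 * b * F z) - 2 * c * (z e * F z)) + (2 * b * c * z e + c ^ 2 * z e ^ 2)) + b ^ 2 := by
    funext z
    ring
  have i1 := hF.pow 2
  have i2 := hF.const_mul (2 * b)
  have i3 : EG fun z : ι → ℝ => 2 * c * (z e * F z) := ((EG.coord e).mul hF).const_mul (2 * c)
  have i4 : EG fun z : ι → ℝ => 2 * b * c * z e := (EG.coord e).const_mul (2 * b * c)
  have i5 : EG fun z : ι → ℝ => c ^ 2 * z e ^ 2 := ((EG.coord e).pow 2).const_mul (c ^ 2)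
  have h1 : Av e (fun z => (F z - b - c * z e) ^ 2) z =
      Av e (fun z => F z ^ 2) z - b ^ 2 - c ^ 2 := by
    rw [e1]
    unfold Av at *
    rw [J_add (((i1.sub i2).sub i3).add (i4.add i5)) (EG.const _),
      J_add ((i1.sub i2).sub i3) (i4.add i5), J_sub (i1.sub i2) i3, J_sub i1 i2, J_add i4 i5,
      J_const_mul, J_const_mul, J_const_mul, J_const_mul, J_const, ← hb, ← hc]
    have h2 : J (lv e) 0 (fun z : ι → ℝ => z e) z = 0 := Av_coord e z
    have h3 : J (lv e) 0 (fun z : ι → ℝ => z e ^ 2) z = 1 := Av_sq_coord e z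
    rw [h2, h3]
    ring
  rw [h1] at h0
  rw [← hc, ← hb]
  linarith

/-- one-dimensional step -/
lemma Av_step (e : ι) {F F' : (ι → ℝ) → ℝ} (hd : PD e F F') (hF : EG F) (hF' : EG F') :
    ∫ z, (F z - Av e F z) ^ 2 ∂(gI ι) ≤
      (1 / 2) * ∫ z, Av e F' z ^ 2 ∂(gI ι) + (1 / 2) * ∫ z, F' z ^ 2 ∂(gI ι) := by
  have hA := Av_EG e hF
  have hA' := Av_EG e hF'
  have h1 : EG fun z => (F z - Av e F z) ^ 2 := (hF.sub hA).pow 2
  have h2 : EG fun z => (1 / 2) * Av e F' z ^ 2 + (1 / 2) * F' z ^ 2 :=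
    ((hA'.pow 2).const_mul _).add ((hF'.pow 2).const_mul _)
  have h3 : (1 / 2) * ∫ z, Av e F' z ^ 2 ∂(gI ι) + (1 / 2) * ∫ z, F' z ^ 2 ∂(gI ι) =
      ∫ z, ((1 / 2) * Av e F' z ^ 2 + (1 / 2) * F' z ^ 2) ∂(gI ι) := by
    rw [integral_add ((hA'.pow 2).const_mul _).integrable ((hF'.pow 2).const_mul _).integrable,
      integral_const_mul, integral_const_mul]
  rw [h3, cc_integral_update e h1, cc_integral_update e h2]
  refine integral_mono (cc_integrable_update e h1) (cc_integrable_update e h2) fun z => ?_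
  have h4 := var_one_snd (f := fun x => F (Function.update z e x))
    (f' := fun x => F' (Function.update z e x)) (fun x => hd z x) (hF.cc_update z e)
    (hF'.cc_update z e)
  have h5 : ∫ x, (F (Function.update z e x) - Av e F (Function.update z e x)) ^ 2
      ∂(gaussianReal 0 1) = ∫ x, (F (Function.update z e x) -
        ∫ y, F (Function.update z e y) ∂(gaussianReal 0 1)) ^ 2 ∂(gaussianReal 0 1) := by
    simp only [Av_upd, Av_eq e hF z]
  have h6 : ∫ x, ((1 / 2) * Av e F' (Function.update z e x) ^ 2 +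
      (1 / 2) * F' (Function.update z e x) ^ 2) ∂(gaussianReal 0 1) =
      (1 / 2) * (∫ x, F' (Function.update z e x) ∂(gaussianReal 0 1)) ^ 2 +
      (1 / 2) * ∫ x, F' (Function.update z e x) ^ 2 ∂(gaussianReal 0 1) := by
    simp only [Av_upd, Av_eq e hF' z]
    rw [integral_add (integrable_const _) ((hF'.cc_update z e).sq.integrable.const_mul _),
      integral_const, probReal_univ, one_smul, integral_const_mul]
  dsimp only
  rw [h5, h6]
  exact h4

/-- partial derivatives are unique -/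
lemma PD_unique {e : ι} {H H' K' : (ι → ℝ) → ℝ} (h : PD e H H') (k : PD e H K') (y : ι → ℝ) :
    H' y = K' y := by
  have h1 := h y (y e)
  have h2 := k y (y e)
  rw [Function.update_eq_self] at h1 h2
  exact h1.unique h2

lemma var_eq {F : (ι → ℝ) → ℝ} (hF : EG F) (c : ℝ) :
    ∫ z, (F z - c) ^ 2 ∂(gI ι) =
      ∫ z, F z ^ 2 ∂(gI ι) - 2 * c * ∫ z, F z ∂(gI ι) + c ^ 2 := by
  have e : (fun z => (F z - c) ^ 2) = fun z => (F z ^ 2 - 2 * c * F z) + c ^ 2 := by
    funext x
    ring
  rw [e, integral_add ((hF.pow 2).sub (hF.const_mul _)).integrable (integrable_const _),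
    integral_sub (hF.pow 2).integrable (hF.const_mul _).integrable, integral_const_mul,
    integral_const, probReal_univ, one_smul]

/-- **Second order Poincare inequality** for functions of finitely many coordinates. -/
theorem var_snd_on (s : Finset ι) : ∀ {F : (ι → ℝ) → ℝ} {F' : ι → (ι → ℝ) → ℝ}, EG F →
    (∀ e, PD e F (F' e)) → (∀ e, EG (F' e)) →
    (∀ z w : ι → ℝ, (∀ j ∈ s, z j = w j) → F z = F w) →
    ∫ z, (F z - ∫ w, F w ∂(gI ι)) ^ 2 ∂(gI ι) ≤
      (1 / 2) * ∑ e, (∫ z, F' e z ∂(gI ι)) ^ 2 + (1 / 2) * ∑ e, ∫ z, F' e z ^ 2 ∂(gI ι) := by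
  induction s using Finset.induction_on with
  | empty =>
    intro F F' hF hd hF' hdep
    have h1 : ∀ z, F z = F 0 := fun z => hdep z 0 (by simp)
    have h2 : ∫ z, (F z - ∫ w, F w ∂(gI ι)) ^ 2 ∂(gI ι) = 0 := by
      simp only [h1, integral_const, probReal_univ, one_smul, sub_self]
      simp
    rw [h2]
    have h3 : 0 ≤ ∑ e, (∫ z, F' e z ∂(gI ι)) ^ 2 := Finset.sum_nonneg fun _ _ => sq_nonneg _
    have h4 : 0 ≤ ∑ e, ∫ z, F' e z ^ 2 ∂(gI ι) :=
      Finset.sum_nonneg fun _ _ => integral_nonneg fun _ => sq_nonneg _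
    linarith
  | insert e t het ih =>
    intro F F' hF hd hF' hdep
    -- the average over `e`
    set G := Av e F with hG
    have hGE : EG G := Av_EG e hF
    set G' : ι → (ι → ℝ) → ℝ := fun j => if j = e then fun _ => 0 else Av e (F' j) with hG'
    have hG'd : ∀ j, PD j G (G' j) := by
      intro j
      by_cases h : j = e
      · subst h
        simp only [hG', if_true]
        exact Av_pd_self j F
      · simp only [hG', if_neg h]
        exact Av_pd h (hd j) hF (hF' j)
    have hG'E : ∀ j, EG (G' j) := by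
      intro j
      by_cases h : j = e
      · simp only [hG', if_pos h]
        exact EG.const 0
      · simp only [hG', if_neg h]
        exact Av_EG e (hF' j)
    have hGdep : ∀ z w : ι → ℝ, (∀ j ∈ t, z j = w j) → G z = G w := by
      intro z w h
      simp only [hG]
      unfold Av J
      simp only [mix_lv]
      congr 1
      funext v
      refine hdep _ _ fun j hj => ?_
      by_cases h' : j = e
      · subst h'
        simp
      · rw [Function.update_of_ne h', Function.update_of_ne h']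
        exact h j ((Finset.mem_insert.1 hj).resolve_left h')
    have ih' := ih hGE hG'd hG'E hGdep
    -- the first chaos in `e`
    set g := Av e (fun z => z e * F z) with hg
    have hgE : EG g := Av_EG e ((EG.coord e).mul hF)
    have hgF : ∀ z, g z = Av e (F' e) z := fun z => Av_stein e (hd e) hF (hF' e) z
    set g' : ι → (ι → ℝ) → ℝ := fun j => if j = e then fun _ => 0 else
      Av e (fun z => z e * F' j z) with hg'
    have hg'd : ∀ j, PD j g (g' j) := by
      intro j
      by_cases h : j = e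
      · subst h
        simp only [hg', if_true]
        exact Av_pd_self j _
      · simp only [hg', if_neg h]
        refine Av_pd h ?_ ((EG.coord e).mul hF) ((EG.coord e).mul (hF' j))
        have h1 := (PD.coord (ι := ι) (e := j) e).mul (hd j)
        refine h1.congr fun y => ?_
        rw [if_neg (fun h' => h h'.symm)]
        ring
    have hg'E : ∀ j, EG (g' j) := by
      intro j
      by_cases h : j = e
      · simp only [hg', if_pos h]
        exact EG.const 0
      · simp only [hg', if_neg h]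
        exact Av_EG e ((EG.coord e).mul (hF' j))
    have hpoin := cc_var_le_one hgE hg'd hg'E
    -- the pieces
    have hpyth := cc_var_pyth (lev := lv e) (l := 0) hF (∫ w, F w ∂(gI ι))
    have hstep := Av_step e (hd e) hF (hF' e)
    have hmean : ∫ w, G w ∂(gI ι) = ∫ w, F w ∂(gI ι) := int_Av e hF
    rw [hmean] at ih'
    have hgm : ∫ w, g w ∂(gI ι) = ∫ w, F' e w ∂(gI ι) := by
      rw [← int_Av e (hF' e)]
      exact integral_congr_ae (Eventually.of_forall hgF)
    rw [var_eq hgE, hgm] at hpoin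
    have hg2 : ∫ z, Av e (F' e) z ^ 2 ∂(gI ι) = ∫ z, g z ^ 2 ∂(gI ι) :=
      integral_congr_ae (Eventually.of_forall fun z => by simp only [hgF])
    rw [hg2] at hstep
    -- comparison of the two sums
    have hcmp : ∀ j, ∫ z, g' j z ^ 2 ∂(gI ι) + ∫ z, G' j z ^ 2 ∂(gI ι) ≤
        if j = e then 0 else ∫ z, F' j z ^ 2 ∂(gI ι) := by
      intro j
      by_cases h : j = e
      · simp only [hg', hG', if_pos h]
        simp
      · simp only [hg', hG', if_neg h]
        rw [← integral_add ((Av_EG e ((EG.coord e).mul (hF' j))).pow 2).integrable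
          ((Av_EG e (hF' j)).pow 2).integrable, ← int_Av e ((hF' j).pow 2)]
        refine integral_mono (((Av_EG e ((EG.coord e).mul (hF' j))).pow 2).add
          ((Av_EG e (hF' j)).pow 2)).integrable (Av_EG e ((hF' j).pow 2)).integrable fun z => ?_
        have := Av_cs e (hF' j) z
        dsimp only
        linarith
    have hcmp2 : ∑ j, ∫ z, g' j z ^ 2 ∂(gI ι) + ∑ j, ∫ z, G' j z ^ 2 ∂(gI ι) +
        ∫ z, F' e z ^ 2 ∂(gI ι) ≤ ∑ j, ∫ z, F' j z ^ 2 ∂(gI ι) := by
      have h1 := Finset.sum_le_sum fun j (_ : j ∈ (Finset.univ : Finset ι)) => hcmp j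
      rw [Finset.sum_add_distrib] at h1
      have h2 : ∑ j, ∫ z, F' j z ^ 2 ∂(gI ι) =
          ∑ j, ((if j = e then 0 else ∫ z, F' j z ^ 2 ∂(gI ι)) +
            if j = e then ∫ z, F' j z ^ 2 ∂(gI ι) else 0) := by
        refine Finset.sum_congr rfl fun j _ => ?_
        split_ifs <;> simp
      rw [h2, Finset.sum_add_distrib, Finset.sum_ite_eq' Finset.univ e]
      simp only [Finset.mem_univ, if_true]
      linarith
    have hmeans : ∑ j, (∫ z, G' j z ∂(gI ι)) ^ 2 + (∫ z, F' e z ∂(gI ι)) ^ 2 =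
        ∑ j, (∫ z, F' j z ∂(gI ι)) ^ 2 := by
      have h2 : ∑ j, (∫ z, F' j z ∂(gI ι)) ^ 2 =
          ∑ j, ((∫ z, G' j z ∂(gI ι)) ^ 2 +
            if j = e then (∫ z, F' j z ∂(gI ι)) ^ 2 else 0) := by
        refine Finset.sum_congr rfl fun j _ => ?_
        by_cases h : j = e
        · simp [hG', h]
        · simp only [hG', if_neg h, int_Av e (hF' j), add_zero]
      rw [h2, Finset.sum_add_distrib, Finset.sum_ite_eq' Finset.univ e]
      simp
    have hpyth' : ∫ z, (F z - ∫ w, F w ∂(gI ι)) ^ 2 ∂(gI ι) =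
        ∫ z, (F z - Av e F z) ^ 2 ∂(gI ι) + ∫ z, (G z - ∫ w, F w ∂(gI ι)) ^ 2 ∂(gI ι) := hpyth
    rw [hpyth']
    rw [← hG] at hstep
    nlinarith [hstep, ih', hpoin, hcmp2, hmeans]

/-- **Second order Poincare inequality.** -/
theorem var_snd {F : (ι → ℝ) → ℝ} {F' : ι → (ι → ℝ) → ℝ} (hF : EG F)
    (hd : ∀ e, PD e F (F' e)) (hF' : ∀ e, EG (F' e)) :
    ∫ z, (F z - ∫ w, F w ∂(gI ι)) ^ 2 ∂(gI ι) ≤
      (1 / 2) * ∑ e, (∫ z, F' e z ∂(gI ι)) ^ 2 + (1 / 2) * ∑ e, ∫ z, F' e z ^ 2 ∂(gI ι) :=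
  var_snd_on Finset.univ hF hd hF' fun z w h => by
    rw [funext fun j => h j (Finset.mem_univ j)]

end Vale.Agent.P254.S129
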