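import Vale.Agent.P254.S.H129.Herm

set_option linter.all false

/-!
# P254, block S: Gaussian Poincare inequality for Lipschitz functions (StmtPoi), by mollification
-/

open MeasureTheory ProbabilityTheory Filter Topology Set Metric ContinuousLinearMap
open scoped Convolution

namespace Vale.Agent.P254.S129

open Vale.Agent.P227.M Vale.Agent.P254.S

variable {n : ℕ} {f : E n → ℝ} {K : NNReal}

/-- bump functions of radius `1/(k+1)` -/
noncomputable def bump (n k : ℕ) : ContDiffBump (0 : E n) where
  rIn := 1 / (2 * (k + 1))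
  rOut := 1 / (k + 1)
  rIn_pos := by positivity
  rIn_lt_rOut := by
    have : (0:ℝ) < k + 1 := by positivity
    rw [div_lt_div_iff₀ (by positivity) this]
    nlinarith

/-- mollification -/
noncomputable def moll (f : E n → ℝ) (k : ℕ) : E n → ℝ :=
  (bump n k).normed volume ⋆[lsmul ℝ ℝ, volume] f

lemma conv_apply (g : E n → ℝ) (k : ℕ) (x : E n) :
    ((bump n k).normed volume ⋆[lsmul ℝ ℝ, volume] g) x =
      ∫ y, (bump n k).normed volume y * g (x - y) := rfl

lemma rho_nonneg (k : ℕ) (y : E n) : 0 ≤ (bump n k).normed volume y := (bump n k).nonneg_normed y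

lemma rho_cont (k : ℕ) : Continuous ((bump n k).normed (volume : Measure (E n))) :=
  (bump n k).continuous_normed

lemma rho_int (k : ℕ) : Integrable ((bump n k).normed (volume : Measure (E n))) volume :=
  (bump n k).integrable_normed

lemma rho_one (k : ℕ) : ∫ y, (bump n k).normed (volume : Measure (E n)) y = 1 :=
  (bump n k).integral_normed

lemma moll_close (hf : LipschitzWith K f) (k : ℕ) (x : E n) :
    |moll f k x - f x| ≤ K * (1 / (k + 1)) := by
  have h := (bump n k).dist_normed_convolution_le (μ := volume) (g := f) (x₀ := x)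
    (ε := K * (1 / (k + 1))) hf.continuous.aestronglyMeasurable (fun z hz => by
      refine (hf.dist_le_mul z x).trans ?_
      have : dist z x ≤ 1 / (k + 1) := le_of_lt hz
      gcongr)
  rw [Real.dist_eq] at h
  exact h

lemma int_rho_mul (hf : LipschitzWith K f) (k : ℕ) (x : E n) :
    Integrable (fun y => (bump n k).normed volume y * f (x - y)) volume := by
  have h1 : Continuous fun y => (bump n k).normed volume y * f (x - y) :=
    (rho_cont k).mul (hf.continuous.comp (continuous_const.sub continuous_id))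
  exact h1.integrable_of_hasCompactSupport ((bump n k).hasCompactSupport_normed.mul_right)

lemma moll_lip (hf : LipschitzWith K f) (k : ℕ) : LipschitzWith K (moll f k) := by
  refine LipschitzWith.of_dist_le_mul fun x x' => ?_
  rw [Real.dist_eq]
  have h1 : moll f k x - moll f k x' =
      ∫ y, (bump n k).normed volume y * (f (x - y) - f (x' - y)) := by
    rw [moll, conv_apply, conv_apply, ← integral_sub (int_rho_mul hf k x) (int_rho_mul hf k x')]
    refine integral_congr_ae (Eventually.of_forall fun y => ?_)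
    dsimp only
    ring
  rw [h1, ← Real.norm_eq_abs]
  have h2 : ∀ y, ‖(bump n k).normed volume y * (f (x - y) - f (x' - y))‖ ≤
      (bump n k).normed volume y * (K * dist x x') := by
    intro y
    rw [norm_mul, Real.norm_eq_abs, abs_of_nonneg (rho_nonneg k y)]
    have h3 := hf.dist_le_mul (x - y) (x' - y)
    rw [Real.dist_eq, dist_sub_right] at h3
    exact mul_le_mul_of_nonneg_left h3 (rho_nonneg k y)
  refine (norm_integral_le_of_norm_le ((rho_int k).mul_const _) (Eventually.of_forall h2)).trans ?_
  rw [integral_mul_const, rho_one, one_mul]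

lemma moll_C1 (hf : LipschitzWith K f) (k : ℕ) : ContDiff ℝ 1 (moll f k) :=
  (bump n k).hasCompactSupport_normed.contDiff_convolution_left (lsmul ℝ ℝ)
    (bump n k).contDiff_normed (hf.continuous.locallyIntegrable)

lemma moll_fderiv_le (hf : LipschitzWith K f) (k : ℕ) (x : E n) : ‖fderiv ℝ (moll f k) x‖ ≤ K :=
  norm_fderiv_le_of_lipschitz ℝ (moll_lip hf k)

lemma fderiv_le (hf : LipschitzWith K f) (x : E n) : ‖fderiv ℝ f x‖ ≤ K :=
  norm_fderiv_le_of_lipschitz ℝ hf

lemma pd_le (hf : LipschitzWith K f) (i : Fin n) (x : E n) : |pd i f x| ≤ K := by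
  have h1 := (fderiv ℝ f x).le_opNorm (ei i)
  rw [norm_ei, mul_one, Real.norm_eq_abs] at h1
  exact h1.trans (fderiv_le hf x)

lemma pd_meas (f : E n → ℝ) (i : Fin n) : Measurable (pd i f) := by
  have h := measurable_fderiv_apply_const ℝ f (ei i)
  exact h

lemma moll_hasFDeriv (hf : LipschitzWith K f) (k : ℕ) (x : E n) :
    Integrable (fun y => (bump n k).normed volume y • fderiv ℝ f (x - y)) volume ∧
    HasFDerivAt (moll f k) (∫ y, (bump n k).normed volume y • fderiv ℝ f (x - y)) x := by
  have hsub : ∀ z : E n, Continuous fun y : E n => z - y := fun z =>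
    continuous_const.sub continuous_id
  have key := hasFDerivAt_integral_of_dominated_loc_of_lip (𝕜 := ℝ) (μ := (volume : Measure (E n)))
    (F := fun x y => (bump n k).normed volume y * f (x - y))
    (F' := fun y => (bump n k).normed volume y • fderiv ℝ f (x - y)) (x₀ := x)
    (s := univ) (bound := fun y => (bump n k).normed volume y * K) univ_mem ?_ ?_ ?_ ?_ ?_ ?_
  · exact key
  · exact Eventually.of_forall fun z => ((rho_cont k).mul (hf.continuous.comp (hsub z))).aestronglyMeasurable
  · exact int_rho_mul hf k x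
  · exact ((rho_cont k).measurable.smul ((measurable_fderiv ℝ f).comp
      (hsub x).measurable)).aestronglyMeasurable
  · refine Eventually.of_forall fun y => LipschitzOnWith.of_dist_le_mul fun a _ b _ => ?_
    have h3 := hf.dist_le_mul (a - y) (b - y)
    rw [Real.dist_eq, dist_sub_right] at h3
    rw [Real.dist_eq, ← mul_sub, abs_mul, abs_of_nonneg (rho_nonneg k y), Real.coe_nnabs,
      abs_of_nonneg (mul_nonneg (rho_nonneg k y) (NNReal.coe_nonneg K)), mul_assoc]
    exact mul_le_mul_of_nonneg_left h3 (rho_nonneg k y)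
  · exact (rho_int k).mul_const _
  · have h1 : ∀ᵐ z : E n, DifferentiableAt ℝ f z := hf.ae_differentiableAt
    have h2 := (Measure.measurePreserving_sub_left (volume : Measure (E n)) x).quasiMeasurePreserving.ae h1
    filter_upwards [h2] with y hy
    have h3 : HasFDerivAt (fun z : E n => f (z - y)) (fderiv ℝ f (x - y)) x := by
      have h4 : HasFDerivAt (fun z : E n => z - y) (ContinuousLinearMap.id ℝ (E n)) x :=
        (hasFDerivAt_id x).sub_const y
      have h5 := HasFDerivAt.comp (g := f) x hy.hasFDerivAt h4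
      rw [ContinuousLinearMap.comp_id] at h5
      exact h5
    exact h3.const_mul _

lemma moll_pd (hf : LipschitzWith K f) (k : ℕ) (i : Fin n) (x : E n) :
    pd i (moll f k) x = ((bump n k).normed volume ⋆[lsmul ℝ ℝ, volume] (pd i f)) x := by
  obtain ⟨h1, h2⟩ := moll_hasFDeriv hf k x
  rw [pd, h2.fderiv, ContinuousLinearMap.integral_apply h1, conv_apply]
  rfl

lemma moll_pd_tendsto (hf : LipschitzWith K f) (i : Fin n) :
    ∀ᵐ x : E n, Tendsto (fun k => pd i (moll f k) x) atTop (𝓝 (pd i f x)) := by
  have hg : LocallyIntegrable (pd i f) (volume : Measure (E n)) := by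
    have h0 : LocallyIntegrable (fun _ : E n => (K : ℝ)) volume := locallyIntegrable_const _
    exact h0.mono (pd_meas f i).aestronglyMeasurable (Eventually.of_forall fun x => by
      rw [Real.norm_eq_abs, Real.norm_eq_abs, abs_of_nonneg (NNReal.coe_nonneg K)]
      exact pd_le hf i x)
  have h := ContDiffBump.ae_convolution_tendsto_right_of_locallyIntegrable
    (μ := (volume : Measure (E n))) (φ := fun k => bump n k) (l := atTop) (K := 2) (g := pd i f)
    tendsto_one_div_add_atTop_nhds_zero_nat (Eventually.of_forall fun k => by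
      show (1:ℝ) / (k + 1) ≤ 2 * (1 / (2 * (k + 1)))
      rw [le_iff_eq_or_lt]
      left
      field_simp) hg
  filter_upwards [h] with x hx
  refine hx.congr fun k => ?_
  rw [moll_pd hf]

/-- **StmtPoi** Gaussian Poincare inequality for Lipschitz functions. -/
theorem stmtPoi : StmtPoi := by
  intro n f K hf
  set A : ℝ := |f 0| + K with hA
  have hK : (0:ℝ) ≤ K := K.2
  have hA0 : 0 ≤ A := by positivity
  have hfg : ∀ x, |f x| ≤ |f 0| + K * ‖x‖ := by
    intro x
    have h1 := hf.dist_le_mul x 0
    rw [Real.dist_eq, dist_zero_right] at h1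
    have h2 := abs_sub_abs_le_abs_sub (f x) (f 0)
    linarith
  have hk1 : ∀ k : ℕ, (K:ℝ) * (1 / (k + 1)) ≤ K := by
    intro k
    have : (1:ℝ) / (k + 1) ≤ 1 := by
      rw [div_le_one (by positivity)]
      linarith [(Nat.cast_nonneg k : (0:ℝ) ≤ k)]
    nlinarith
  have hmg : ∀ (k : ℕ) x, |moll f k x| ≤ A + K * ‖x‖ := by
    intro k x
    have h1 := moll_close hf k x
    have h2 := abs_sub_abs_le_abs_sub (moll f k x) (f x)
    have h3 := hfg x
    have h4 := hk1 k
    linarith
  have hsq : ∀ (k : ℕ) x, moll f k x ^ 2 ≤ 2 * A ^ 2 + 4 * K ^ 2 * (‖x‖ ^ 2 / 2) := by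
    intro k x
    have h1 := hmg k x
    have h2 : moll f k x ^ 2 ≤ (A + K * ‖x‖) ^ 2 := by
      rw [← sq_abs]
      exact pow_le_pow_left₀ (abs_nonneg _) h1 2
    nlinarith [sq_nonneg (A - K * ‖x‖)]
  have hlim : ∀ x, Tendsto (fun k => moll f k x) atTop (𝓝 (f x)) := by
    intro x
    have h0 : Tendsto (fun k : ℕ => (K:ℝ) * (1 / ((k:ℝ) + 1))) atTop (𝓝 0) := by
      have := (tendsto_one_div_add_atTop_nhds_zero_nat (𝕜 := ℝ)).const_mul (K:ℝ)
      rwa [mul_zero] at this
    rw [tendsto_iff_dist_tendsto_zero]
    refine squeeze_zero (fun _ => dist_nonneg) (fun k => ?_) h0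
    rw [Real.dist_eq]
    exact moll_close hf k x
  have hbound : Integrable (fun x : E n => (2 * A ^ 2 + 4 * K ^ 2 * (‖x‖ ^ 2 / 2)) * Real.exp (-Q x)) := by
    have h1 := (S332.integrable_expQ (n := n)).const_mul (2 * A ^ 2)
    have h2 := (S332.integrable_norm_sq_expQ (n := n)).const_mul (4 * (K:ℝ) ^ 2)
    refine (h1.add h2).congr (Eventually.of_forall fun x => ?_)
    simp only [Pi.add_apply]
    ring
  have hQc : Continuous fun x : E n => Real.exp (-Q x) := by
    unfold Q
    fun_prop
  -- the three limits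
  have L1 : Tendsto (fun k => ∫ x, moll f k x ^ 2 * Real.exp (-Q x)) atTop
      (𝓝 (∫ x, f x ^ 2 * Real.exp (-Q x))) := by
    refine tendsto_integral_of_dominated_convergence _ (fun k => ?_) hbound (fun k => ?_) ?_
    · exact (((moll_lip hf k).continuous.pow 2).mul hQc).aestronglyMeasurable
    · refine Eventually.of_forall fun x => ?_
      rw [Real.norm_eq_abs, abs_of_nonneg (by positivity)]
      exact mul_le_mul_of_nonneg_right (hsq k x) (Real.exp_pos _).le
    · exact Eventually.of_forall fun x => ((hlim x).pow 2).mul_const _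
  have L2 : Tendsto (fun k => ∫ x, moll f k x * Real.exp (-Q x)) atTop
      (𝓝 (∫ x, f x * Real.exp (-Q x))) := by
    refine tendsto_integral_of_dominated_convergence
      (fun x => (1 + (2 * A ^ 2 + 4 * K ^ 2 * (‖x‖ ^ 2 / 2))) * Real.exp (-Q x))
      (fun k => ?_) ?_ (fun k => ?_) ?_
    · exact (((moll_lip hf k).continuous).mul hQc).aestronglyMeasurable
    · refine ((S332.integrable_expQ (n := n)).add hbound).congr (Eventually.of_forall fun x => ?_)
      simp only [Pi.add_apply]
      ring
    · refine Eventually.of_forall fun x => ?_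
      rw [norm_mul, Real.norm_eq_abs, Real.norm_eq_abs, abs_of_pos (Real.exp_pos _)]
      refine mul_le_mul_of_nonneg_right ?_ (Real.exp_pos _).le
      have h1 := hsq k x
      have h2 : |moll f k x| ≤ 1 + moll f k x ^ 2 := by
        rw [← sq_abs (moll f k x)]
        nlinarith [sq_nonneg (|moll f k x| - 1), abs_nonneg (moll f k x)]
      linarith
    · exact Eventually.of_forall fun x => (hlim x).mul_const _
  have L3 : Tendsto (fun k => ∫ x, (∑ i, pd i (moll f k) x ^ 2) * Real.exp (-Q x)) atTop
      (𝓝 (∫ x, (∑ i, pd i f x ^ 2) * Real.exp (-Q x))) := by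
    refine tendsto_integral_of_dominated_convergence
      (fun x => (n * (K:ℝ) ^ 2) * Real.exp (-Q x)) (fun k => ?_) ?_ (fun k => ?_) ?_
    · refine AEStronglyMeasurable.mul ?_ hQc.aestronglyMeasurable
      exact (Finset.measurable_sum _ fun i _ => (pd_meas _ i).pow_const 2).aestronglyMeasurable
    · exact (S332.integrable_expQ (n := n)).const_mul _
    · refine Eventually.of_forall fun x => ?_
      rw [norm_mul, Real.norm_eq_abs, Real.norm_eq_abs, abs_of_pos (Real.exp_pos _)]
      refine mul_le_mul_of_nonneg_right ?_ (Real.exp_pos _).le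
      rw [abs_of_nonneg (Finset.sum_nonneg fun i _ => sq_nonneg _)]
      have h1 : ∀ i ∈ (Finset.univ : Finset (Fin n)), pd i (moll f k) x ^ 2 ≤ (K:ℝ) ^ 2 := by
        intro i _
        rw [← sq_abs]
        exact pow_le_pow_left₀ (abs_nonneg _) (pd_le (moll_lip hf k) i x) 2
      refine (Finset.sum_le_sum h1).trans (le_of_eq ?_)
      simp
    · have h1 : ∀ᵐ x : E n, ∀ i, Tendsto (fun k => pd i (moll f k) x) atTop (𝓝 (pd i f x)) :=
        ae_all_iff.2 fun i => moll_pd_tendsto hf i
      filter_upwards [h1] with x hx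
      exact (tendsto_finset_sum _ fun i _ => (hx i).pow 2).mul_const _
  have E1 : ∀ k, Ex Q (fun z => moll f k z ^ 2) - (Ex Q (moll f k)) ^ 2 ≤
      Ex Q (fun z => ∑ i, (pd i (moll f k) z) ^ 2) := fun k =>
    poi_C1 (moll_C1 hf k) (moll_fderiv_le hf k)
  unfold Ex at E1 ⊢
  exact le_of_tendsto_of_tendsto' ((L1.div_const _).sub ((L2.div_const _).pow 2))
    (L3.div_const _) E1

end Vale.Agent.P254.S129
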